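import Vale.Agent.P333.H359.Gc.Str

set_option autoImplicit false

/-!
P333: the next steps of the greedy algorithm.
-/

namespace Vale.Agent.P333.H359.Gc

open Vale.Agent.P333
open Vale.Agent.P333.H984 (s0 s1 s2 s3 s4 s5 s6 s7 s8 s9 s10 s11 step_of free free_spec isInf isInf_iff)

theorem step2 : Greedy.Step
    [g1, g0, s0, s1, s2, s3, s4, s5, s6, s7, s10, s11, h0, h1, h2, h3, h6]
    [g2, g0, s0, s1, s2, s3, s4, s5, s6, s7, s10, s11, h0, h1, h2, h6] :=
  step_of h3 g1 g2
    [g0, s0, s1, s2, s3, s4, s5, s6, s7, s10, s11, h0, h1, h2, h6] 157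
    ((List.perm_middle
      (l₁ :=
        [g1, g0, s0, s1, s2, s3, s4, s5, s6, s7, s10, s11, h0, h1, h2])
      (a := h3)
      (l₂ :=
        [h6])).trans
      ((List.perm_middle
      (l₁ :=
        [])
      (a := g1)
      (l₂ :=
        [g0, s0, s1, s2, s3, s4, s5, s6, s7, s10, s11, h0, h1, h2, h6])).cons h3))
    (by decide +kernel) (by decide +kernel) (by decide +kernel) (by decide +kernel)
    (by decide +kernel) rfl

theorem step3 : Greedy.Step
    [g2, g0, s0, s1, s2, s3, s4, s5, s6, s7, s10, s11, h0, h1, h2, h6]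
    [g3, g2, g0, s0, s1, s2, s3, s4, s5, s10, s11, h0, h1, h2, h6] :=
  step_of s6 s7 g3
    [g2, g0, s0, s1, s2, s3, s4, s5, s10, s11, h0, h1, h2, h6] 157
    ((List.perm_middle
      (l₁ :=
        [g2, g0, s0, s1, s2, s3, s4, s5])
      (a := s6)
      (l₂ :=
        [s7, s10, s11, h0, h1, h2, h6])).trans
      ((List.perm_middle
      (l₁ :=
        [g2, g0, s0, s1, s2, s3, s4, s5])
      (a := s7)
      (l₂ :=
        [s10, s11, h0, h1, h2, h6])).cons s6))
    (by decide +kernel) (by decide +kernel) (by decide +kernel) (by decide +kernel)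
    (by decide +kernel) rfl

theorem step4 : Greedy.Step
    [g3, g2, g0, s0, s1, s2, s3, s4, s5, s10, s11, h0, h1, h2, h6]
    [g4, g3, g0, s0, s1, s2, s3, s4, s5, s10, s11, h0, h1, h2] :=
  step_of g2 h6 g4
    [g3, g0, s0, s1, s2, s3, s4, s5, s10, s11, h0, h1, h2] 133
    ((List.perm_middle
      (l₁ :=
        [g3])
      (a := g2)
      (l₂ :=
        [g0, s0, s1, s2, s3, s4, s5, s10, s11, h0, h1, h2, h6])).trans
      ((List.perm_middle
      (l₁ :=
        [g3, g0, s0, s1, s2, s3, s4, s5, s10, s11, h0, h1, h2])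
      (a := h6)
      (l₂ :=
        [])).cons g2))
    (by decide +kernel) (by decide +kernel) (by decide +kernel) (by decide +kernel)
    (by decide +kernel) rfl

end Vale.Agent.P333.H359.Gc
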