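import Vale.Agent.P333.H359.Gc.Str

set_option autoImplicit false

/-!
P333: the next steps of the greedy algorithm.
-/

namespace Vale.Agent.P333.H359.Gc

open Vale.Agent.P333
open Vale.Agent.P333.H984 (s0 s1 s2 s3 s4 s5 s6 s7 s8 s9 s10 s11 step_of free free_spec isInf isInf_iff)

theorem step5 : Greedy.Step
    [g4, g3, g0, s0, s1, s2, s3, s4, s5, s10, s11, h0, h1, h2]
    [g5, g4, g3, g0, s0, s1, s2, s3, s4, s5, h0, h1, h2] :=
  step_of s10 s11 g5
    [g4, g3, g0, s0, s1, s2, s3, s4, s5, h0, h1, h2] 133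
    ((List.perm_middle
      (l₁ :=
        [g4, g3, g0, s0, s1, s2, s3, s4, s5])
      (a := s10)
      (l₂ :=
        [s11, h0, h1, h2])).trans
      ((List.perm_middle
      (l₁ :=
        [g4, g3, g0, s0, s1, s2, s3, s4, s5])
      (a := s11)
      (l₂ :=
        [h0, h1, h2])).cons s10))
    (by decide +kernel) (by decide +kernel) (by decide +kernel) (by decide +kernel)
    (by decide +kernel) rfl

theorem step6 : Greedy.Step
    [g5, g4, g3, g0, s0, s1, s2, s3, s4, s5, h0, h1, h2]
    [g6, g5, g3, g0, s0, s1, s2, s3, s4, s5, h0, h1] :=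
  step_of h2 g4 g6
    [g5, g3, g0, s0, s1, s2, s3, s4, s5, h0, h1] 121
    ((List.perm_middle
      (l₁ :=
        [g5, g4, g3, g0, s0, s1, s2, s3, s4, s5, h0, h1])
      (a := h2)
      (l₂ :=
        [])).trans
      ((List.perm_middle
      (l₁ :=
        [g5])
      (a := g4)
      (l₂ :=
        [g3, g0, s0, s1, s2, s3, s4, s5, h0, h1])).cons h2))
    (by decide +kernel) (by decide +kernel) (by decide +kernel) (by decide +kernel)
    (by decide +kernel) rfl

theorem step7 : Greedy.Step
    [g6, g5, g3, g0, s0, s1, s2, s3, s4, s5, h0, h1]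
    [g7, g5, g3, g0, s0, s1, s2, s3, s4, s5, h0] :=
  step_of h1 g6 g7
    [g5, g3, g0, s0, s1, s2, s3, s4, s5, h0] 121
    ((List.perm_middle
      (l₁ :=
        [g6, g5, g3, g0, s0, s1, s2, s3, s4, s5, h0])
      (a := h1)
      (l₂ :=
        [])).trans
      ((List.perm_middle
      (l₁ :=
        [])
      (a := g6)
      (l₂ :=
        [g5, g3, g0, s0, s1, s2, s3, s4, s5, h0])).cons h1))
    (by decide +kernel) (by decide +kernel) (by decide +kernel) (by decide +kernel)
    (by decide +kernel) rfl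

theorem step8 : Greedy.Step
    [g7, g5, g3, g0, s0, s1, s2, s3, s4, s5, h0]
    [g8, g7, g5, g3, g0, s0, s1, s2, s3, h0] :=
  step_of s4 s5 g8
    [g7, g5, g3, g0, s0, s1, s2, s3, h0] 121
    ((List.perm_middle
      (l₁ :=
        [g7, g5, g3, g0, s0, s1, s2, s3])
      (a := s4)
      (l₂ :=
        [s5, h0])).trans
      ((List.perm_middle
      (l₁ :=
        [g7, g5, g3, g0, s0, s1, s2, s3])
      (a := s5)
      (l₂ :=
        [h0])).cons s4))
    (by decide +kernel) (by decide +kernel) (by decide +kernel) (by decide +kernel)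
    (by decide +kernel) rfl

end Vale.Agent.P333.H359.Gc
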