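import Vale.Agent.P333.H359.Gc.StepA
import Vale.Agent.P333.H359.Gc.StepB
import Vale.Agent.P333.H359.Gc.StepC
import Vale.Agent.P333.H359.Gc.StepD

set_option autoImplicit false

/-!
P333: the greedy algorithm can give a string longer than twice the optimum.
-/

namespace Vale.Agent.P333.H359.Gc

open Vale.Agent.P333
open Vale.Agent.P333.H984 (s0 s1 s2 s3 s4 s5 s6 s7 s8 s9 s10 s11 step_of free free_spec isInf isInf_iff)

/-- the family -/
def fam : List (List ℕ) :=
  [s0, s1, s2, s3, s4, s5, s6, s7, s8, s9, s10, s11, h0, h1, h2, h3, h4, h5, h6]

theorem free_fam : free fam = true := by decide +kernel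

theorem reduced : Greedy.Reduced fam fam := by
  refine ⟨by decide +kernel, fun s => ⟨fun h => ⟨h, fun t ht hst => free_spec free_fam h ht hst⟩,
    fun h => h.1⟩⟩

theorem output : Greedy.Output fam g17 := by
  refine ⟨fam, reduced, ?_⟩
  have h0 := Relation.ReflTransGen.single step0
  have h1 := h0.tail step1
  have h2 := h1.tail step2
  have h3 := h2.tail step3
  have h4 := h3.tail step4
  have h5 := h4.tail step5
  have h6 := h5.tail step6
  have h7 := h6.tail step7
  have h8 := h7.tail step8
  have h9 := h8.tail step9
  have h10 := h9.tail step10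
  have h11 := h10.tail step11
  have h12 := h11.tail step12
  have h13 := h12.tail step13
  have h14 := h13.tail step14
  have h15 := h14.tail step15
  have h16 := h15.tail step16
  have h17 := h16.tail step17
  exact h17

theorem length_out : (g17).length = 1464 := by decide +kernel

theorem opt_le : opt fam ≤ 720 := by
  have h1 : IsSuperstring fam sup := by
    have h2 : (fam.all fun s => isInf s sup) = true := by decide +kernel
    rw [List.all_eq_true] at h2
    intro s hs
    exact (isInf_iff s sup).1 (h2 s hs)
  exact Nat.sInf_le ⟨sup, h1, by decide +kernel⟩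

/-- **The greedy superstring can be longer than twice a shortest superstring.** -/
theorem main : ∃ (S : List (List ℕ)) (t : List ℕ), Greedy.Reduced S S ∧ Greedy.Output S t ∧
    2 * opt S < t.length ∧ 61 * opt S ≤ 30 * t.length := by
  refine ⟨fam, g17, reduced, output, ?_⟩
  have h1 := opt_le
  have h2 := length_out
  omega

end Vale.Agent.P333.H359.Gc
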