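import Vale.Agent.P333.H359.Gc.Str

set_option autoImplicit false

/-!
P333: the first steps of the greedy algorithm.
-/

namespace Vale.Agent.P333.H359.Gc

open Vale.Agent.P333
open Vale.Agent.P333.H984 (s0 s1 s2 s3 s4 s5 s6 s7 s8 s9 s10 s11 step_of free free_spec isInf isInf_iff)

theorem step0 : Greedy.Step
    [s0, s1, s2, s3, s4, s5, s6, s7, s8, s9, s10, s11, h0, h1, h2, h3, h4, h5, h6]
    [g0, s0, s1, s2, s3, s4, s5, s6, s7, s10, s11, h0, h1, h2, h3, h4, h5, h6] :=
  step_of s8 s9 g0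
    [s0, s1, s2, s3, s4, s5, s6, s7, s10, s11, h0, h1, h2, h3, h4, h5, h6] 162
    ((List.perm_middle
      (l₁ :=
        [s0, s1, s2, s3, s4, s5, s6, s7])
      (a := s8)
      (l₂ :=
        [s9, s10, s11, h0, h1, h2, h3, h4, h5, h6])).trans
      ((List.perm_middle
      (l₁ :=
        [s0, s1, s2, s3, s4, s5, s6, s7])
      (a := s9)
      (l₂ :=
        [s10, s11, h0, h1, h2, h3, h4, h5, h6])).cons s8))
    (by decide +kernel) (by decide +kernel) (by decide +kernel) (by decide +kernel)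
    (by decide +kernel) rfl

theorem step1 : Greedy.Step
    [g0, s0, s1, s2, s3, s4, s5, s6, s7, s10, s11, h0, h1, h2, h3, h4, h5, h6]
    [g1, g0, s0, s1, s2, s3, s4, s5, s6, s7, s10, s11, h0, h1, h2, h3, h6] :=
  step_of h4 h5 g1
    [g0, s0, s1, s2, s3, s4, s5, s6, s7, s10, s11, h0, h1, h2, h3, h6] 162
    ((List.perm_middle
      (l₁ :=
        [g0, s0, s1, s2, s3, s4, s5, s6, s7, s10, s11, h0, h1, h2, h3])
      (a := h4)
      (l₂ :=
        [h5, h6])).trans
      ((List.perm_middle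
      (l₁ :=
        [g0, s0, s1, s2, s3, s4, s5, s6, s7, s10, s11, h0, h1, h2, h3])
      (a := h5)
      (l₂ :=
        [h6])).cons h4))
    (by decide +kernel) (by decide +kernel) (by decide +kernel) (by decide +kernel)
    (by decide +kernel) rfl

end Vale.Agent.P333.H359.Gc
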